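import Vale.Agent.P079R.Final

open Filter Topology Set

namespace Vale.Agent.Results.P079.RankOneFPP

/-- Nonexpansive maps that differ from an affine map only in one direction always have fixed
points: if `T a - T b - A (a - b)` is a multiple of a fixed vector `e` for all `a b` in `C`
(`A` a bounded linear operator, no condition on its norm), then `T` has a fixed point, for every
weakly compact convex `C` in an arbitrary Banach space, in particular for every closed bounded
convex `C` in an arbitrary reflexive space. -/
theorem result (X : Type*) [NormedAddCommGroup X] [NormedSpace ℝ X] [CompleteSpace X]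
    (A : X →L[ℝ] X) (e : X) :
    (∀ (C : Set X), C.Nonempty → Convex ℝ C → IsCompact (toWeakSpace ℝ X '' C) →
      ∀ T : C → C, (∀ a b : C, ‖(T a : X) - T b‖ ≤ ‖(a : X) - b‖) →
      (∀ a b : C, ∃ s : ℝ, (T a : X) - T b = A ((a : X) - b) + s • e) → ∃ x : C, T x = x) ∧
    (Function.Surjective (NormedSpace.inclusionInDoubleDual ℝ X) →
      ∀ (C : Set X), C.Nonempty → IsClosed C → Bornology.IsBounded C → Convex ℝ C →
      ∀ T : C → C, (∀ a b : C, ‖(T a : X) - T b‖ ≤ ‖(a : X) - b‖) →
      (∀ a b : C, ∃ s : ℝ, (T a : X) - T b = A ((a : X) - b) + s • e) → ∃ x : C, T x = x) :=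
  ⟨fun C hne hconv hCc T hT hform =>
    Vale.Agent.P079R.wfpp_rankOne_subtype C hne hconv hCc T hT A e hform,
    fun hrefl C hne hcl hbd hconv T hT hform =>
    Vale.Agent.P079R.wfpp_rankOne_subtype C hne hconv
      (Vale.Agent.P079.isCompact_image_toWeakSpace hrefl hcl hbd hconv) T hT A e hform⟩

end Vale.Agent.Results.P079.RankOneFPP
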