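import Vale.Agent.P079.Final

open Filter Topology Set

namespace Vale.Agent.Results.P079.WorthFPP

/-- Every reflexive real Banach space with the WORTH property of Sims has the fixed point property
for nonexpansive maps. -/
theorem result (X : Type*) [NormedAddCommGroup X] [NormedSpace ℝ X] [CompleteSpace X]
    (hrefl : Function.Surjective (NormedSpace.inclusionInDoubleDual ℝ X))
    (hworth : ∀ (x : X) (u : ℕ → X),
      (∀ f : StrongDual ℝ X, Tendsto (fun n => f (u n)) atTop (𝓝 0)) →
      Tendsto (fun n => ‖u n + x‖ - ‖u n - x‖) atTop (𝓝 0))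
    (C : Set X) (hne : C.Nonempty) (hcl : IsClosed C) (hbd : Bornology.IsBounded C)
    (hconv : Convex ℝ C) (T : C → C) (hT : ∀ a b : C, ‖(T a : X) - T b‖ ≤ ‖(a : X) - b‖) :
    ∃ x : C, T x = x :=
  Vale.Agent.P079.fpp_subtype hrefl zero_le_one (by norm_num)
    (Vale.Agent.P079.nearWorth_of_worth hworth) C hne hcl hbd hconv T hT

end Vale.Agent.Results.P079.WorthFPP
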